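import Vale.Agent.P205.Invariant

/-!
P205, smooth isometric immersions of closed surfaces into Euclidean four-space.

Let `E, F, G` be smooth `T`-periodic functions of one real variable with `G > 0`, `E G - F^2 > 0`,
and let `L > 0`.  If the twist `∫_0^T F/G` is a rational multiple `r L / s` of `L`, there is a smooth
map `Φ` from the `(u,v)`-plane to Euclidean four-space, invariant under the translations by `(T, 0)`
and `(0, L)`, whose first fundamental form is `E(u) du^2 + 2 F(u) du dv + G(u) dv^2`.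
-/

namespace Vale.Agent.Results.P205.InvariantTori

open scoped ContDiff

theorem result (E F G : ℝ → ℝ) (hE : ContDiff ℝ ∞ E) (hF : ContDiff ℝ ∞ F)
    (hG : ContDiff ℝ ∞ G) (T L : ℝ) (hT : 0 < T) (hL : 0 < L)
    (hET : ∀ u, E (u + T) = E u) (hFT : ∀ u, F (u + T) = F u) (hGT : ∀ u, G (u + T) = G u)
    (hGpos : ∀ u, 0 < G u) (hdet : ∀ u, 0 < E u * G u - F u ^ 2)
    (s : ℕ) (hs : 0 < s) (r : ℤ) (htw : ∫ t in (0 : ℝ)..T, F t / G t = r * (L / s)) :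
    ∃ Φ : ℝ × ℝ → EuclideanSpace ℝ (Fin 4), ContDiff ℝ ∞ Φ ∧
      (∀ q : ℝ × ℝ, Φ (q.1 + T, q.2) = Φ q) ∧ (∀ q : ℝ × ℝ, Φ (q.1, q.2 + L) = Φ q) ∧
      ∀ q : ℝ × ℝ,
        inner ℝ (fderiv ℝ Φ q (1, 0)) (fderiv ℝ Φ q (1, 0)) = E q.1 ∧
        inner ℝ (fderiv ℝ Φ q (1, 0)) (fderiv ℝ Φ q (0, 1)) = F q.1 ∧
        inner ℝ (fderiv ℝ Φ q (0, 1)) (fderiv ℝ Φ q (0, 1)) = G q.1 :=
  Vale.Agent.P205.invariant E F G hE hF hG T L hT hL hET hFT hGT hGpos hdet s hs r htw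

end Vale.Agent.Results.P205.InvariantTori
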