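import Vale.Agent.P205.Main

/-!
P205, smooth isometric immersions of closed surfaces into Euclidean four-space.

Let `e, a` be smooth `T`-periodic functions of one real variable with `e > 0`, and let `L > 0`.
Then there is a smooth map `Φ` from the `(u,v)`-plane to Euclidean four-space, invariant under the
translations by `(T, 0)` and `(0, L)`, whose first fundamental form is
`e(u)^2 du^2 + a(u)^2 dv^2` at every point.  So `Φ` descends to the torus `ℝ²/(Tℤ × Lℤ)` and is a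
smooth isometric immersion of this torus with the warped-product metric (when `a` has no zero).
-/

namespace Vale.Agent.Results.P205.WarpedTori

open scoped ContDiff

theorem result (e a : ℝ → ℝ) (he : ContDiff ℝ ∞ e) (ha : ContDiff ℝ ∞ a) (T L : ℝ)
    (hT : 0 < T) (hL : 0 < L) (heT : ∀ u, e (u + T) = e u) (haT : ∀ u, a (u + T) = a u)
    (hpos : ∀ u, 0 < e u) :
    ∃ Φ : ℝ × ℝ → EuclideanSpace ℝ (Fin 4), ContDiff ℝ ∞ Φ ∧
      (∀ q : ℝ × ℝ, Φ (q.1 + T, q.2) = Φ q) ∧ (∀ q : ℝ × ℝ, Φ (q.1, q.2 + L) = Φ q) ∧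
      ∀ q : ℝ × ℝ,
        inner ℝ (fderiv ℝ Φ q (1, 0)) (fderiv ℝ Φ q (1, 0)) = e q.1 ^ 2 ∧
        inner ℝ (fderiv ℝ Φ q (1, 0)) (fderiv ℝ Φ q (0, 1)) = 0 ∧
        inner ℝ (fderiv ℝ Φ q (0, 1)) (fderiv ℝ Φ q (0, 1)) = a q.1 ^ 2 :=
  Vale.Agent.P205.warped e a he ha T L hT hL heT haT hpos

end Vale.Agent.Results.P205.WarpedTori
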